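import Vale.Agent.P181.BK.Spec
import Vale.Agent.P181.H690.LabelS

/-!
P181: row L of BK.
-/

set_option autoImplicit false

namespace Vale.Agent.P181.H690

open Vale.Agent.P181.BK

theorem rowL : RowL := fun _ _ _ _ _ _ _ _ C sz S hS hQ hw hsz hC he hb hD hnum =>
  labelS C sz S hS hQ hw hsz hC he hb hD hnum

end Vale.Agent.P181.H690
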